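import Vale.Agent.P126.Main

open Pointwise

namespace Vale.Agent.Results.P126.Disproof

open Vale.Agent.P126

theorem result :
    (¬ ∃ a b : ℝ, 1 ≤ a ∧ 1 ≤ b ∧ ∀ n : ℕ, 1 ≤ n → ∀ K L : Set (EuclideanSpace ℝ (Fin n)),
      IsSymmBody K → IsSymmBody L →
        1 / b * Real.log (coverNum (polar L) (a • polar K)) ≤ Real.log (coverNum K L) ∧
        Real.log (coverNum K L) ≤ b * Real.log (coverNum (polar L) (a⁻¹ • polar K))) ∧
    (∀ a b : ℝ, 1 ≤ a → 1 ≤ b → ∃ n : ℕ, 1 ≤ n ∧ ∃ K L : Set (EuclideanSpace ℝ (Fin n)),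
      IsSymmBody K ∧ IsSymmBody L ∧
        Real.log (coverNum K L) < 1 / b * Real.log (coverNum (polar L) (a • polar K))) ∧
    (∀ a b : ℝ, 1 ≤ a → 1 ≤ b → ∃ n : ℕ, 1 ≤ n ∧ ∃ K L : Set (EuclideanSpace ℝ (Fin n)),
      IsSymmBody K ∧ IsSymmBody L ∧
        b * Real.log (coverNum (polar L) (a⁻¹ • polar K)) < Real.log (coverNum K L)) := by
  refine ⟨?_, left_fails, right_fails⟩
  rintro ⟨a, b, ha, hb, h⟩
  obtain ⟨n, hn, K, L, hK, hL, hlt⟩ := right_fails a b ha hb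
  exact absurd (h n hn K L hK hL).2 (not_le.2 hlt)

end Vale.Agent.Results.P126.Disproof
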